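import Vale.Agent.Lib.P137.Final
import Vale.Agent.Lib.P137W.Stmt

open MeasureTheory Metric
open scoped ContDiff ENNReal

noncomputable section

namespace Vale.Agent.Results.P137.A0_sobolev

/-- The uncentered Hardy Littlewood maximal function of `f` over open Euclidean balls, with values
in `[0, ∞]`: the supremum of the means of `|f|` over all open balls containing `x`. -/
def uncenteredMax {d : ℕ} (f : EuclideanSpace ℝ (Fin d) → ℝ) (x : EuclideanSpace ℝ (Fin d)) :
    ℝ≥0∞ :=
  ⨆ (c : EuclideanSpace ℝ (Fin d)) (r : ℝ) (_ : 0 < r) (_ : x ∈ ball c r),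
    (∫⁻ y in ball c r, ‖f y‖ₑ) / volume (ball c r)

/-- The endpoint Sobolev bound for the uncentered maximal function in every dimension: for
`f ∈ L¹` with weak gradient `G ∈ L¹`, the maximal function is finite almost everywhere, locally
integrable, and has a weak gradient `H ∈ L¹` with `∫ ‖H‖ ≤ C ∫ ‖G‖`. -/
theorem result (d : ℕ) (hd : 1 ≤ d) :
    ∃ C : ℝ, ∀ (f : EuclideanSpace ℝ (Fin d) → ℝ)
      (G : EuclideanSpace ℝ (Fin d) → EuclideanSpace ℝ (Fin d)),
      Integrable f volume → Integrable G volume →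
      (∀ φ : EuclideanSpace ℝ (Fin d) → ℝ, ContDiff ℝ ∞ φ → HasCompactSupport φ →
        ∀ v : EuclideanSpace ℝ (Fin d),
          ∫ x, f x * fderiv ℝ φ x v = - ∫ x, φ x * inner ℝ (G x) v) →
      (∀ᵐ x : EuclideanSpace ℝ (Fin d), uncenteredMax f x ≠ ⊤) ∧
      LocallyIntegrable (fun x => (uncenteredMax f x).toReal) volume ∧
      ∃ H : EuclideanSpace ℝ (Fin d) → EuclideanSpace ℝ (Fin d),
        Integrable H volume ∧
        (∀ φ : EuclideanSpace ℝ (Fin d) → ℝ, ContDiff ℝ ∞ φ → HasCompactSupport φ →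
          ∀ v : EuclideanSpace ℝ (Fin d),
            ∫ x, (uncenteredMax f x).toReal * fderiv ℝ φ x v = - ∫ x, φ x * inner ℝ (H x) v) ∧
        ∫ x, ‖H x‖ ≤ C * ∫ x, ‖G x‖ := by
  have hK0 : (0 : ℝ) ≤ 16 * d ^ 2 * ValeP137.CB d := by
    have := ValeP137.CB_nonneg d
    positivity
  have hbvc : ValeP137.BVc d (16 * d ^ 2 * ValeP137.CB d) := by
    intro g hg hgc h
    refine (ValeP137.Mtilde_bound hd hg hgc h).trans (le_of_eq ?_)
    congr 1
    refine lintegral_congr fun w => ?_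
    rw [ofReal_norm, ValeP137.enorm_gradient_eq]
  refine ⟨d * (16 * d ^ 2 * ValeP137.CB d), fun f G hf hG hw => ?_⟩
  exact ValeP137.sobolev_maxE hd hbvc hK0 hf hG hw

end Vale.Agent.Results.P137.A0_sobolev
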