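import Vale.Agent.Lib.P137.Final

open MeasureTheory Metric

/-- The endpoint Sobolev bound for the uncentered Hardy Littlewood maximal function over balls,
in every dimension, for `C^1` functions with compact support. -/
theorem Vale.Agent.Results.P137.A_C1c.result (d : ℕ) (hd : 1 ≤ d) :
    ∃ C : ℝ, ∀ f : EuclideanSpace ℝ (Fin d) → ℝ, ContDiff ℝ 1 f → HasCompactSupport f →
      (∃ K, LipschitzWith K (ValeP137.Mtilde f)) ∧
      (∀ h : EuclideanSpace ℝ (Fin d),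
        ∫⁻ x, ‖ValeP137.Mtilde f (x + h) - ValeP137.Mtilde f x‖ₑ ≤
          ENNReal.ofReal (C * ‖h‖ * ∫ x, ‖fderiv ℝ f x‖)) ∧
      ∫⁻ x, ‖fderiv ℝ (ValeP137.Mtilde f) x‖ₑ ≤ ENNReal.ofReal (C * ∫ x, ‖fderiv ℝ f x‖) := by
  have hCB := ValeP137.CB_nonneg d
  refine ⟨(d : ℝ) * (16 * d ^ 2 * ValeP137.CB d), fun f hf hfc => ?_⟩
  have hd1 : (1 : ℝ) ≤ d := by exact_mod_cast hd
  have hcont : Continuous fun x => ‖fderiv ℝ f x‖ :=
    (hf.continuous_fderiv one_ne_zero).norm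
  have hint : Integrable fun x => ‖fderiv ℝ f x‖ :=
    hcont.integrable_of_hasCompactSupport (hfc.fderiv (𝕜 := ℝ)).norm
  have hV : ∫⁻ x, ENNReal.ofReal ‖fderiv ℝ f x‖ = ENNReal.ofReal (∫ x, ‖fderiv ℝ f x‖) :=
    (ofReal_integral_eq_lintegral_ofReal hint (Filter.Eventually.of_forall fun _ => norm_nonneg _)).symm
  have hV0 : 0 ≤ ∫ x, ‖fderiv ℝ f x‖ := integral_nonneg fun _ => norm_nonneg _
  refine ⟨ValeP137.Mtilde_lipschitz hf hfc, fun h => ?_, ?_⟩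
  · refine (ValeP137.Mtilde_bound hd hf hfc h).trans ?_
    rw [hV, ← ENNReal.ofReal_mul (by positivity)]
    refine ENNReal.ofReal_le_ofReal ?_
    have h1 : 16 * (d : ℝ) ^ 2 * ValeP137.CB d * ‖h‖ ≤ (d : ℝ) * (16 * d ^ 2 * ValeP137.CB d) * ‖h‖ := by
      have h2 : 0 ≤ 16 * (d : ℝ) ^ 2 * ValeP137.CB d * ‖h‖ := by positivity
      nlinarith
    exact mul_le_mul_of_nonneg_right h1 hV0
  · refine (ValeP137.Mtilde_fderiv_bound hd hf hfc).trans ?_
    rw [hV, ← ENNReal.ofReal_mul (by positivity)]
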