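import Vale.Agent.Lib.P137BV.Main
import Vale.Agent.Lib.P137W.Stmt

open MeasureTheory Metric
open scoped ENNReal

noncomputable section

namespace Vale.Agent.Results.P137.B_BV

/-- The uncentered Hardy Littlewood maximal function of `f` over open Euclidean balls, with values
in `[0, ∞]`: the supremum of the means of `|f|` over all open balls containing `x`. -/
def uncenteredMax {d : ℕ} (f : EuclideanSpace ℝ (Fin d) → ℝ) (x : EuclideanSpace ℝ (Fin d)) :
    ℝ≥0∞ :=
  ⨆ (c : EuclideanSpace ℝ (Fin d)) (r : ℝ) (_ : 0 < r) (_ : x ∈ ball c r),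
    (∫⁻ y in ball c r, ‖f y‖ₑ) / volume (ball c r)

/-- The variation bound for the uncentered maximal function over balls in every dimension: for
`f ∈ L¹` with finite total variation, the maximal function is finite almost everywhere, locally
integrable, and its translates and its total variation are controlled by the total variation of `f`. -/
theorem result (d : ℕ) (hd : 1 ≤ d) :
    ∃ C : ℝ, ∀ f : EuclideanSpace ℝ (Fin d) → ℝ, Integrable f volume → ValeP137.totalVar f ≠ ⊤ →
      (∀ᵐ x : EuclideanSpace ℝ (Fin d), uncenteredMax f x ≠ ⊤) ∧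
      LocallyIntegrable (fun x => (uncenteredMax f x).toReal) volume ∧
      (∀ h : EuclideanSpace ℝ (Fin d),
        ∫⁻ x, ‖(uncenteredMax f (x + h)).toReal - (uncenteredMax f x).toReal‖ₑ ≤
          ENNReal.ofReal (C * ‖h‖) * ValeP137.totalVar f) ∧
      ValeP137.totalVar (fun x => (uncenteredMax f x).toReal) ≤
        ENNReal.ofReal C * ValeP137.totalVar f := by
  have hK0 := ValeP137.CB_nonneg d
  refine ⟨d * (d * (16 * d ^ 2 * ValeP137.CB d)), fun f hf hV => ?_⟩
  obtain ⟨hb, hloc, hbv, htv⟩ := ValeP137.bv_main hd hf hV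
  have hd1 : (1 : ℝ) ≤ d := by exact_mod_cast hd
  have heq : ∀ x, uncenteredMax f x = ValeP137.maxE f x := fun _ => rfl
  have hae : (fun x => (uncenteredMax f x).toReal) =ᵐ[volume] ValeP137.Mtilde f := by
    filter_upwards [hb] with x hx
    rw [heq, ValeP137.maxE_eq hf hx, ENNReal.toReal_ofReal]
    exact Real.sSup_nonneg (by
      rintro _ ⟨c, r, hr, -, rfl⟩
      rw [setAverage_eq, smul_eq_mul]
      have h2 : 0 ≤ ∫ y in ball c r, |f y| := integral_nonneg fun _ => abs_nonneg _
      positivity)
  refine ⟨?_, (locallyIntegrable_congr hae).2 hloc, fun h => ?_, ?_⟩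
  · filter_upwards [hb] with x hx
    rw [heq, ValeP137.maxE_eq hf hx]
    exact ENNReal.ofReal_ne_top
  · have hshift : ∀ᵐ x : EuclideanSpace ℝ (Fin d),
        (uncenteredMax f (x + h)).toReal = ValeP137.Mtilde f (x + h) :=
      (measurePreserving_add_right (volume : Measure (EuclideanSpace ℝ (Fin d)))
        h).quasiMeasurePreserving.ae hae
    have h1 : ∫⁻ x, ‖(uncenteredMax f (x + h)).toReal - (uncenteredMax f x).toReal‖ₑ =
        ∫⁻ x, ‖ValeP137.Mtilde f (x + h) - ValeP137.Mtilde f x‖ₑ := by
      refine lintegral_congr_ae ?_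
      filter_upwards [hae, hshift] with x hx hx2
      rw [hx, hx2]
    rw [h1]
    refine (hbv h).trans ?_
    rw [← mul_assoc, ← ENNReal.ofReal_mul (norm_nonneg h)]
    have h2 : 0 ≤ (d : ℝ) * (16 * d ^ 2 * ValeP137.CB d) := by positivity
    have h3 : ‖h‖ * ((d : ℝ) * (16 * d ^ 2 * ValeP137.CB d)) ≤
        (d : ℝ) * ((d : ℝ) * (16 * d ^ 2 * ValeP137.CB d)) * ‖h‖ := by
      nlinarith [mul_nonneg (mul_nonneg (sub_nonneg.2 hd1) h2) (norm_nonneg h)]
    exact mul_le_mul_left (ENNReal.ofReal_le_ofReal h3) _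
  · have h1 : ValeP137.totalVar (fun x => (uncenteredMax f x).toReal) =
        ValeP137.totalVar (ValeP137.Mtilde f) := by
      unfold ValeP137.totalVar
      refine iSup_congr fun φ => iSup_congr fun _ => iSup_congr fun _ => iSup_congr fun _ => ?_
      congr 1
      refine integral_congr_ae ?_
      filter_upwards [hae] with x hx
      rw [hx]
    rw [h1]
    exact htv

end Vale.Agent.Results.P137.B_BV
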